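import Vale.Agent.P159.T1.NC.H664.StiffXi
import Vale.Agent.P159.T1.NC.H831.Fsc
import Vale.Agent.P159.T1.NC.H731.EndQ
import Vale.Agent.P159.T1.NC.Props

set_option linter.all false

/-!
P159, near-critical regime: the order of magnitude of `log ξ(b)` as `b → b_c-` is the order of
magnitude of the logarithm of the scale at which the stiffness crosses `2/π - d`.
-/

namespace Vale.Agent.P159.T1.NC.H254

open Vale.Agent.P159

/-- the first scale at which the stiffness is at most `2/π - d` -/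
noncomputable def Ld (d b : ℝ) : ℕ := sInf {L : ℕ | 1 ≤ L ∧ stiff L b ≤ 2 / Real.pi - d}

/-- the correlation length tends to infinity at the critical point -/
theorem xi_large (X : ℝ) (hX : 0 ≤ X) : ∃ δ : ℝ, 0 < δ ∧ ∀ b : ℝ, 0 < b → bCrit - δ < b →
    b < bCrit → X ≤ corrLength b := by
  refine ⟨1 / (16 * X ^ 2 + 2), by positivity, fun b hb h1 h2 => ?_⟩
  have hpos : 0 < bCrit - b := sub_pos.2 h2
  have h3 := XY.xi_lower hb h2
  have h4 : bCrit - b < 1 / (16 * X ^ 2 + 2) := by linarith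
  have h5 : 16 * X ^ 2 + 2 ≤ 1 / (bCrit - b) := by
    rw [le_div_iff₀ hpos]
    rw [lt_div_iff₀ (by positivity)] at h4
    linarith
  have h6 : 4 * X ≤ Real.sqrt (1 / (bCrit - b) - 2) := by
    apply Real.le_sqrt_of_sq_le
    nlinarith
  linarith

/-- the set of scales is not empty; upper bound of the first scale -/
theorem Ld_spec {d : ℝ} (hd : d < 2 / Real.pi) {b : ℝ} (hb : 0 < b) (hm : 0 < mass b)
    (hxi : 0 ≤ corrLength b) :
    1 ≤ Ld d b ∧ stiff (Ld d b) b ≤ 2 / Real.pi - d ∧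
      (Ld d b : ℝ) ≤ 10000 * (b * (1 + b)) * (1 + corrLength b) ^ 3 / (2 / Real.pi - d) + 1 := by
  have hd' : 0 < 2 / Real.pi - d := sub_pos.2 hd
  set Q : ℝ := 10000 * (b * (1 + b)) * (1 + corrLength b) ^ 3 / (2 / Real.pi - d) with hQ
  have hnum : 0 < 10000 * (b * (1 + b)) * (1 + corrLength b) ^ 3 := by positivity
  have hQ0 : 0 < Q := div_pos hnum hd'
  have hc1 : 1 ≤ ⌈Q⌉₊ := Nat.one_le_iff_ne_zero.2 (Nat.ceil_pos.2 hQ0).ne'
  have hQc : Q ≤ (⌈Q⌉₊ : ℝ) := Nat.le_ceil Q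
  have hcpos : (0 : ℝ) < (⌈Q⌉₊ : ℝ) := by exact_mod_cast hc1
  have hmem : ⌈Q⌉₊ ∈ {L : ℕ | 1 ≤ L ∧ stiff L b ≤ 2 / Real.pi - d} := by
    refine ⟨hc1, (UJ.H664.stiff_le_xi hb hm _ hc1).trans ?_⟩
    rw [div_le_iff₀ hcpos]
    have h1 : 10000 * (b * (1 + b)) * (1 + corrLength b) ^ 3 = (2 / Real.pi - d) * Q := by
      rw [hQ, ← mul_div_assoc, mul_div_cancel_left₀ _ hd'.ne']
    rw [h1]
    exact mul_le_mul_of_nonneg_left hQc hd'.le
  have h2 : Ld d b ∈ {L : ℕ | 1 ≤ L ∧ stiff L b ≤ 2 / Real.pi - d} := Nat.sInf_mem ⟨_, hmem⟩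
  have h3 : Ld d b ≤ ⌈Q⌉₊ := Nat.sInf_le hmem
  refine ⟨h2.1, h2.2, ?_⟩
  have h4 : (Ld d b : ℝ) ≤ (⌈Q⌉₊ : ℝ) := by exact_mod_cast h3
  exact h4.trans (Nat.ceil_lt_add_one hQ0.le).le

/-- Clause (C): the logarithm of the correlation length and the logarithm of the first scale at
which the stiffness is at most `2/π - d` have the same order of magnitude as `b → b_c-`. -/
theorem order (hc : 0 < bCrit) (d : ℝ) (hd0 : 0 < d) (hd : d < 2 / Real.pi) :
    ∃ P δ : ℝ, 0 < P ∧ 0 < δ ∧ ∀ b : ℝ, bCrit - δ < b → b < bCrit →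
      1 ≤ sInf {L : ℕ | 1 ≤ L ∧ stiff L b ≤ 2 / Real.pi - d} ∧
      stiff (sInf {L : ℕ | 1 ≤ L ∧ stiff L b ≤ 2 / Real.pi - d}) b ≤ 2 / Real.pi - d ∧
      1 / P * Real.log (corrLength b) ≤
        Real.log ((sInf {L : ℕ | 1 ≤ L ∧ stiff L b ≤ 2 / Real.pi - d} : ℕ) : ℝ) ∧
      Real.log ((sInf {L : ℕ | 1 ≤ L ∧ stiff L b ≤ 2 / Real.pi - d} : ℕ) : ℝ) ≤
        4 * Real.log (corrLength b) := by
  have hd' : 0 < 2 / Real.pi - d := sub_pos.2 hd
  obtain ⟨A, P, hA, hfs⟩ := H831.fsc_of NC.H731.endQ (bCrit / 2) bCrit d (by positivity) hd0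
  set C0 : ℝ := 10000 * (bCrit * (1 + bCrit)) / (2 / Real.pi - d) with hC0
  have hC00 : 0 < C0 := by rw [hC0]; positivity
  set X : ℝ := max (A ^ 2) (8 * C0 + 1) with hX
  have hX1 : 1 ≤ X := le_trans (by linarith) (le_max_right _ _)
  obtain ⟨δ, hδ, hxi⟩ := xi_large X (by linarith)
  refine ⟨2 * ((P : ℝ) + 1), min δ (bCrit / 2), by positivity, lt_min hδ (by positivity),
    fun b h1 h2 => ?_⟩
  have hb2 : bCrit / 2 ≤ b := by
    have := min_le_right δ (bCrit / 2)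
    linarith
  have hb : 0 < b := by linarith
  have hxb : X ≤ corrLength b := hxi b hb (by
    have := min_le_left δ (bCrit / 2)
    linarith) h2
  set ξ := corrLength b with hξ
  have hξ1 : 1 ≤ ξ := hX1.trans hxb
  have hm := XY.mass_pos_of_lt_bCrit hb h2
  obtain ⟨k1, k2, k3⟩ := Ld_spec hd hb hm (by rw [← hξ]; linarith)
  have hL0 : (1 : ℝ) ≤ (Ld d b : ℝ) := by exact_mod_cast k1
  have hLpos : (0 : ℝ) < (Ld d b : ℝ) := by linarith
  have hlogL : 0 ≤ Real.log (Ld d b : ℝ) := Real.log_nonneg hL0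
  refine ⟨k1, k2, ?_, ?_⟩
  · -- lower bound
    change 1 / (2 * ((P : ℝ) + 1)) * Real.log ξ ≤ Real.log (Ld d b : ℝ)
    have h3 := (hfs b hb2 h2.le (Ld d b) k1 k2).2
    have h4 : Real.log ξ ≤ Real.log A + P * Real.log (Ld d b : ℝ) := by
      calc Real.log ξ ≤ Real.log (A * (Ld d b : ℝ) ^ P) := Real.log_le_log (by linarith) h3
        _ = Real.log A + P * Real.log (Ld d b : ℝ) := by
            rw [Real.log_mul (by positivity) (by positivity), Real.log_pow]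
    have h5 : 2 * Real.log A ≤ Real.log ξ := by
      have : Real.log (A ^ 2) ≤ Real.log ξ :=
        Real.log_le_log (by positivity) ((le_max_left _ _).trans hxb)
      rwa [Real.log_pow, Nat.cast_ofNat] at this
    have h6 : Real.log ξ ≤ 2 * ((P : ℝ) + 1) * Real.log (Ld d b : ℝ) := by
      nlinarith
    rw [one_div, inv_mul_le_iff₀ (by positivity)]
    exact h6
  · change Real.log (Ld d b : ℝ) ≤ 4 * Real.log ξ
    have h3 : (Ld d b : ℝ) ≤ ξ ^ 4 := by
      refine k3.trans ?_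
      have e1 : b * (1 + b) ≤ bCrit * (1 + bCrit) := by
        have : b ≤ bCrit := h2.le
        nlinarith
      have e2 : (1 + ξ) ^ 3 ≤ 8 * ξ ^ 3 := by
        have : 1 + ξ ≤ 2 * ξ := by linarith
        calc (1 + ξ) ^ 3 ≤ (2 * ξ) ^ 3 := pow_le_pow_left₀ (by linarith) this 3
          _ = 8 * ξ ^ 3 := by ring
      have e3 : 10000 * (b * (1 + b)) * (1 + ξ) ^ 3 / (2 / Real.pi - d) ≤ C0 * (8 * ξ ^ 3) := by
        rw [hC0, div_mul_eq_mul_div]
        refine div_le_div_of_nonneg_right ?_ hd'.le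
        refine mul_le_mul ?_ e2 (by positivity) (by positivity)
        linarith
      have e4 : (1 : ℝ) ≤ ξ ^ 3 := one_le_pow₀ hξ1
      have e5 : 8 * C0 + 1 ≤ ξ := (le_max_right _ _).trans hxb
      have e6 : (8 * C0 + 1) * ξ ^ 3 ≤ ξ * ξ ^ 3 :=
        mul_le_mul_of_nonneg_right e5 (by positivity)
      calc 10000 * (b * (1 + b)) * (1 + ξ) ^ 3 / (2 / Real.pi - d) + 1
          ≤ C0 * (8 * ξ ^ 3) + ξ ^ 3 := add_le_add e3 e4
        _ = (8 * C0 + 1) * ξ ^ 3 := by ring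
        _ ≤ ξ * ξ ^ 3 := e6
        _ = ξ ^ 4 := by ring
    calc Real.log (Ld d b : ℝ) ≤ Real.log (ξ ^ 4) := Real.log_le_log hLpos h3
      _ = 4 * Real.log ξ := by rw [Real.log_pow, Nat.cast_ofNat]

/-- Clause (C), sharp form, from the sharp near-critical inequality. -/
theorem order_sharp (hS : NC.SharpNC) (hy : 2 / Real.pi ≤ helicity bCrit) (hc : 0 < bCrit)
    (d : ℝ) (hd0 : 0 < d) (hd : d < 2 / Real.pi) (ε : ℝ) (hε : 0 < ε) :
    ∃ K δ : ℝ, 0 < δ ∧ ∀ b : ℝ, bCrit - δ < b → b < bCrit →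
      1 ≤ sInf {L : ℕ | 1 ≤ L ∧ stiff L b ≤ 2 / Real.pi - d} ∧
      stiff (sInf {L : ℕ | 1 ≤ L ∧ stiff L b ≤ 2 / Real.pi - d}) b ≤ 2 / Real.pi - d ∧
      (1 - ε) * Real.log (corrLength b) ≤
        (1 + (helicity bCrit - 2 / Real.pi) / d) *
          Real.log ((sInf {L : ℕ | 1 ≤ L ∧ stiff L b ≤ 2 / Real.pi - d} : ℕ) : ℝ) + K ∧
      Real.log ((sInf {L : ℕ | 1 ≤ L ∧ stiff L b ≤ 2 / Real.pi - d} : ℕ) : ℝ) ≤
        3 * Real.log (corrLength b) + K := by
  have hd' : 0 < 2 / Real.pi - d := sub_pos.2 hd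
  obtain ⟨K, hK, hs⟩ := hS (ε * d) (by positivity)
  set C0 : ℝ := 10000 * (bCrit * (1 + bCrit)) / (2 / Real.pi - d) with hC0
  have hC00 : 0 < C0 := by rw [hC0]; positivity
  obtain ⟨δ, hδ, hxi⟩ := xi_large 1 zero_le_one
  have hlog0 : 0 ≤ Real.log (8 * C0 + 1) := Real.log_nonneg (by linarith)
  have hKd : 0 ≤ K / d := by positivity
  refine ⟨K / d + Real.log (8 * C0 + 1), min δ (bCrit / 2), lt_min hδ (by positivity),
    fun b h1 h2 => ?_⟩
  have hb : 0 < b := by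
    have := min_le_right δ (bCrit / 2)
    linarith
  have hξ1 : 1 ≤ corrLength b := hxi b hb (by
    have := min_le_left δ (bCrit / 2)
    linarith) h2
  have hsb := hs b hb h2
  set ξ := corrLength b with hξ
  have hm := XY.mass_pos_of_lt_bCrit hb h2
  obtain ⟨k1, k2, k3⟩ := Ld_spec hd hb hm (by rw [← hξ]; linarith)
  have hL0 : (1 : ℝ) ≤ (Ld d b : ℝ) := by exact_mod_cast k1
  have hLpos : (0 : ℝ) < (Ld d b : ℝ) := by linarith
  have hlogL : 0 ≤ Real.log (Ld d b : ℝ) := Real.log_nonneg hL0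
  have hlogξ : 0 ≤ Real.log ξ := Real.log_nonneg hξ1
  refine ⟨k1, k2, ?_, ?_⟩
  · change (1 - ε) * Real.log ξ ≤
      (1 + (helicity bCrit - 2 / Real.pi) / d) * Real.log (Ld d b : ℝ) +
        (K / d + Real.log (8 * C0 + 1))
    have hk : 0 ≤ (helicity bCrit - 2 / Real.pi) / d := div_nonneg (by linarith) hd0.le
    rcases le_total (Ld d b : ℝ) ξ with hle | hle
    · have h3 := hsb (Ld d b) k1 hle
      have h4 : d ≤ 2 / Real.pi - stiff (Ld d b) b := by linarith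
      have h5 : 0 ≤ Real.log ξ - Real.log (Ld d b : ℝ) :=
        sub_nonneg.2 (Real.log_le_log hLpos hle)
      have h6 := mul_le_mul_of_nonneg_right h4 h5
      have h7 : d * (Real.log ξ - Real.log (Ld d b : ℝ)) ≤
          (helicity bCrit - 2 / Real.pi) * Real.log (Ld d b : ℝ) + ε * d * Real.log ξ + K :=
        h6.trans h3
      have h8 : (Real.log ξ - Real.log (Ld d b : ℝ)) ≤
          (helicity bCrit - 2 / Real.pi) / d * Real.log (Ld d b : ℝ) + ε * Real.log ξ + K / d := by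
        have e : (helicity bCrit - 2 / Real.pi) / d * Real.log (Ld d b : ℝ) + ε * Real.log ξ
            + K / d = ((helicity bCrit - 2 / Real.pi) * Real.log (Ld d b : ℝ) +
              ε * d * Real.log ξ + K) / d := by
          field_simp
        rw [e, le_div_iff₀ hd0]
        linarith
      linarith
    · have h3 : Real.log ξ ≤ Real.log (Ld d b : ℝ) := Real.log_le_log (by linarith) hle
      have h4 := mul_nonneg hk hlogL
      have h5 := mul_nonneg hε.le hlogξ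
      linarith
  · change Real.log (Ld d b : ℝ) ≤ 3 * Real.log ξ + (K / d + Real.log (8 * C0 + 1))
    have h3 : (Ld d b : ℝ) ≤ (8 * C0 + 1) * ξ ^ 3 := by
      refine k3.trans ?_
      have e1 : b * (1 + b) ≤ bCrit * (1 + bCrit) := by
        have : b ≤ bCrit := h2.le
        nlinarith
      have e2 : (1 + ξ) ^ 3 ≤ 8 * ξ ^ 3 := by
        have : 1 + ξ ≤ 2 * ξ := by linarith
        calc (1 + ξ) ^ 3 ≤ (2 * ξ) ^ 3 := pow_le_pow_left₀ (by linarith) this 3
          _ = 8 * ξ ^ 3 := by ring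
      have e3 : 10000 * (b * (1 + b)) * (1 + ξ) ^ 3 / (2 / Real.pi - d) ≤ C0 * (8 * ξ ^ 3) := by
        rw [hC0, div_mul_eq_mul_div]
        refine div_le_div_of_nonneg_right ?_ hd'.le
        refine mul_le_mul ?_ e2 (by positivity) (by positivity)
        linarith
      have e4 : (1 : ℝ) ≤ ξ ^ 3 := one_le_pow₀ hξ1
      calc 10000 * (b * (1 + b)) * (1 + ξ) ^ 3 / (2 / Real.pi - d) + 1
          ≤ C0 * (8 * ξ ^ 3) + ξ ^ 3 := add_le_add e3 e4
        _ = (8 * C0 + 1) * ξ ^ 3 := by ring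
    calc Real.log (Ld d b : ℝ) ≤ Real.log ((8 * C0 + 1) * ξ ^ 3) := Real.log_le_log hLpos h3
      _ = Real.log (8 * C0 + 1) + 3 * Real.log ξ := by
          rw [Real.log_mul (by positivity) (by positivity), Real.log_pow, Nat.cast_ofNat]
      _ ≤ 3 * Real.log ξ + (K / d + Real.log (8 * C0 + 1)) := by linarith

end Vale.Agent.P159.T1.NC.H254
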