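import Vale.Agent.P159.T1.NC.H254.Order
import Vale.Agent.P159.T1.NC.Props2
import Vale.Agent.P159.H670.R4
import Vale.Agent.P159.H170.Final

set_option linter.all false

/-!
P159, near-critical regime: the logarithm of the correlation length and the logarithm of the first
scale at which the stiffness is at most `2/π - d`, with the sharp constants on both sides.
-/

open Filter Topology

namespace Vale.Agent.P159.T1.NC.H254

open Vale.Agent.P159

/-- the limit used for the upper bound -/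
theorem lim_aux (C q : ℝ) : Tendsto (fun Y : ℝ => C * (2 / Y + 8 * (Y ^ q * Real.exp (-Y))))
    atTop (𝓝 0) := by
  have h1 : Tendsto (fun Y : ℝ => 2 / Y) atTop (𝓝 0) := tendsto_const_nhds.div_atTop tendsto_id
  have h2 : Tendsto (fun Y : ℝ => Y ^ q * Real.exp (-Y)) atTop (𝓝 0) := by
    have := tendsto_rpow_mul_exp_neg_mul_atTop_nhds_zero q 1 one_pos
    simpa using this
  have h3 := (h1.add (h2.const_mul 8)).const_mul C
  simpa using h3

theorem two_mul_rpow_le {Y p : ℝ} (hY : 2 ≤ Y) : 2 * Y ^ (p + 2) ≤ Y ^ (p + 4) := by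
  have hY0 : 0 < Y := by linarith
  have h1 : Y ^ (p + 4) = Y ^ (p + 2) * Y ^ (2 : ℝ) := by
    rw [← Real.rpow_add hY0]
    congr 1
    ring
  have h2 : (2 : ℝ) ≤ Y ^ (2 : ℝ) := by
    rw [Real.rpow_two]
    nlinarith
  have h3 : 0 ≤ Y ^ (p + 2) := Real.rpow_nonneg hY0.le _
  rw [h1]
  nlinarith

/-- the upper side: the stiffness is small beyond the scale `ξ^(1+ε)` -/
theorem upper (hc : 0 < bCrit) (d : ℝ) (hd : d < 2 / Real.pi) (ε : ℝ) (hε : 0 < ε) :
    ∃ δ : ℝ, 0 < δ ∧ ∀ b : ℝ, bCrit - δ < b → b < bCrit →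
      ∃ l : ℕ, 1 ≤ l ∧ stiff l b ≤ 2 / Real.pi - d ∧
        Real.log l ≤ (1 + ε) * Real.log (corrLength b) := by
  have hd' : 0 < 2 / Real.pi - d := sub_pos.2 hd
  obtain ⟨C, hC0, hC⟩ := H670.r4 bCrit hc
  set p : ℝ := 4 / ε with hp
  have hp0 : 0 < p := by positivity
  have hev : ∀ᶠ Y : ℝ in atTop,
      C * (2 / Y + 8 * (Y ^ (3 * (p + 2)) * Real.exp (-Y))) < 2 / Real.pi - d :=
    (lim_aux C (3 * (p + 2))).eventually (gt_mem_nhds hd')
  obtain ⟨Y0, hY0⟩ := eventually_atTop.1 hev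
  set Y1 : ℝ := max Y0 2 with hY1
  have hY12 : 2 ≤ Y1 := le_max_right _ _
  obtain ⟨δ, hδ, hxi⟩ := xi_large (Y1 ^ p) (Real.rpow_nonneg (by linarith) _)
  refine ⟨min δ (bCrit / 2), lt_min hδ (by positivity), fun b h1 h2 => ?_⟩
  have hb : 0 < b := by
    have := min_le_right δ (bCrit / 2)
    linarith
  have hx : Y1 ^ p ≤ corrLength b := hxi b hb (by
    have := min_le_left δ (bCrit / 2)
    linarith) h2
  have hm := XY.mass_pos_of_lt_bCrit hb h2
  set ξ := corrLength b with hξ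
  have hξ0 : 0 < ξ := lt_of_lt_of_le (Real.rpow_pos_of_pos (by linarith) _) hx
  set Y : ℝ := ξ ^ (1 / p) with hY
  have hYY : Y1 ≤ Y := by
    have h3 : (Y1 ^ p) ^ (1 / p) ≤ ξ ^ (1 / p) :=
      Real.rpow_le_rpow (Real.rpow_nonneg (by linarith) _) hx (by positivity)
    rwa [← Real.rpow_mul (by linarith), mul_one_div_cancel hp0.ne', Real.rpow_one] at h3
  have hY2 : 2 ≤ Y := hY12.trans hYY
  have hYp : 0 < Y := by linarith
  have hYge : Y0 ≤ Y := (le_max_left _ _).trans hYY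
  have hξY : ξ = Y ^ p := by
    rw [hY, ← Real.rpow_mul hξ0.le, one_div_mul_cancel hp0.ne', Real.rpow_one]
  have hlim := hY0 Y hYge
  have hpow1 : ∀ q : ℝ, 0 ≤ q → 1 ≤ Y ^ q := fun q hq => Real.one_le_rpow (by linarith) hq
  set R : ℕ := ⌈Y ^ (p + 1)⌉₊ with hR
  set l : ℕ := ⌈Y ^ (p + 2)⌉₊ with hl
  have hRge : Y ^ (p + 1) ≤ R := Nat.le_ceil _
  have hlge : Y ^ (p + 2) ≤ l := Nat.le_ceil _
  have hRle : (R : ℝ) ≤ 2 * Y ^ (p + 1) := by
    have := Nat.ceil_lt_add_one (Real.rpow_nonneg hYp.le (p + 1))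
    have h3 := hpow1 (p + 1) (by linarith)
    linarith
  have hlle : (l : ℝ) ≤ 2 * Y ^ (p + 2) := by
    have := Nat.ceil_lt_add_one (Real.rpow_nonneg hYp.le (p + 2))
    have h3 := hpow1 (p + 2) (by linarith)
    linarith
  have hR1 : 1 ≤ R := by
    have h3 := (hpow1 (p + 1) (by linarith)).trans hRge
    exact_mod_cast h3
  have hRl : R ≤ l := Nat.ceil_mono (Real.rpow_le_rpow_of_exponent_le (by linarith) (by linarith))
  have hl1 : 1 ≤ l := hR1.trans hRl
  have hlpos : (0 : ℝ) < l := by exact_mod_cast hl1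
  refine ⟨l, hl1, ?_, ?_⟩
  · have h3 := hC b hb h2.le hm l R hR1 hRl
    have h4 : (R : ℝ) / l ≤ 2 / Y := by
      rw [div_le_div_iff₀ hlpos hYp]
      have e1 : Y ^ (p + 2) = Y ^ (p + 1) * Y := by
        rw [← Real.rpow_add_one hYp.ne']
        congr 1
        ring
      calc (R : ℝ) * Y ≤ 2 * Y ^ (p + 1) * Y := mul_le_mul_of_nonneg_right hRle hYp.le
        _ = 2 * Y ^ (p + 2) := by rw [e1]; ring
        _ ≤ 2 * l := by linarith
    have h5 : Y ≤ mass b * R := by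
      have e1 : mass b = 1 / ξ := by rw [hξ]; unfold corrLength; rw [one_div_one_div]
      have e2 : Y ^ (p + 1) = Y ^ p * Y := Real.rpow_add_one hYp.ne' p
      rw [e1, div_mul_eq_mul_div, one_mul, le_div_iff₀ hξ0, mul_comm, hξY, ← e2]
      exact hRge
    have h6 : (l : ℝ) ^ 3 ≤ 8 * Y ^ (3 * (p + 2)) := by
      have e1 : (Y ^ (p + 2)) ^ 3 = Y ^ (3 * (p + 2)) := by
        rw [← Real.rpow_natCast, ← Real.rpow_mul hYp.le]
        congr 1
        push_cast
        ring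
      calc (l : ℝ) ^ 3 ≤ (2 * Y ^ (p + 2)) ^ 3 := pow_le_pow_left₀ hlpos.le hlle 3
        _ = 8 * Y ^ (3 * (p + 2)) := by rw [mul_pow, e1]; norm_num
    have h7 : (l : ℝ) ^ 3 * Real.exp (-(mass b * R)) ≤
        8 * (Y ^ (3 * (p + 2)) * Real.exp (-Y)) := by
      rw [← mul_assoc]
      refine mul_le_mul h6 (Real.exp_le_exp.2 (neg_le_neg h5)) (Real.exp_pos _).le ?_
      exact mul_nonneg (by norm_num) (Real.rpow_nonneg hYp.le _)
    have h8 := mul_le_mul_of_nonneg_left (add_le_add h4 h7) hC0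
    linarith
  · have h3 : (l : ℝ) ≤ Y ^ (p + 4) := hlle.trans (two_mul_rpow_le hY2)
    calc Real.log l ≤ Real.log (Y ^ (p + 4)) := Real.log_le_log hlpos h3
      _ = (p + 4) * Real.log Y := Real.log_rpow hYp _
      _ = (1 + ε) * (p * Real.log Y) := by
          have : p * ε = 4 := by rw [hp]; field_simp
          linear_combination (-Real.log Y) * this
      _ = (1 + ε) * Real.log ξ := by rw [hξY, Real.log_rpow hYp]

theorem orderNC (hS : NC.SharpNC) : NC.OrderNC := by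
  intro d hd0 hd ε hε
  have hc := H170.bCrit_pos
  have hy := H170.hel_bCrit_ge
  set κ : ℝ := (helicity bCrit - 2 / Real.pi) / d with hκ
  have hκ0 : 0 ≤ κ := div_nonneg (by linarith) hd0.le
  set η : ℝ := ε / (2 * (1 + κ + ε)) with hη
  have hden : 0 < 1 + κ + ε := by linarith
  have hη0 : 0 < η := by positivity
  have hη1 : 2 * η * (1 + κ + ε) = ε := by rw [hη]; field_simp
  have hη2 : 0 < 1 - 2 * η := by nlinarith
  obtain ⟨K, δ1, hδ1, h1⟩ := order_sharp hS hy hc d hd0 hd η hη0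
  obtain ⟨δ2, hδ2, h2⟩ := upper hc d hd ε hε
  obtain ⟨δ3, hδ3, h3⟩ := xi_large (Real.exp (|K| / η)) (Real.exp_pos _).le
  refine ⟨min (min δ1 δ2) (min δ3 (bCrit / 2)), by positivity, fun b hb1 hb2 => ?_⟩
  have m1 : min (min δ1 δ2) (min δ3 (bCrit / 2)) ≤ δ1 := (min_le_left _ _).trans (min_le_left _ _)
  have m2 : min (min δ1 δ2) (min δ3 (bCrit / 2)) ≤ δ2 := (min_le_left _ _).trans (min_le_right _ _)
  have m3 : min (min δ1 δ2) (min δ3 (bCrit / 2)) ≤ δ3 := (min_le_right _ _).trans (min_le_left _ _)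
  have m4 : min (min δ1 δ2) (min δ3 (bCrit / 2)) ≤ bCrit / 2 :=
    (min_le_right _ _).trans (min_le_right _ _)
  have hb : 0 < b := by linarith
  obtain ⟨k1, k2, k3, -⟩ := h1 b (by linarith) hb2
  obtain ⟨l, l1, l2, l3⟩ := h2 b (by linarith) hb2
  have hx := h3 b hb (by linarith) hb2
  have hξ0 : 0 < corrLength b := lt_of_lt_of_le (Real.exp_pos _) hx
  have hlogx : |K| / η ≤ Real.log (corrLength b) := by
    rw [Real.le_log_iff_exp_le hξ0]
    exact hx
  refine ⟨Ld d b, ⟨⟨k1, k2⟩, fun L hL => Nat.sInf_le hL⟩, ?_, ?_⟩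
  · have h4 : Ld d b ≤ l := Nat.sInf_le ⟨l1, l2⟩
    have h5 : (0 : ℝ) < (Ld d b : ℝ) := by exact_mod_cast k1
    have h6 : (Ld d b : ℝ) ≤ (l : ℝ) := by exact_mod_cast h4
    exact (Real.log_le_log h5 h6).trans l3
  · have h4 : (1 - η) * Real.log (corrLength b) ≤ (1 + κ) * Real.log (Ld d b : ℝ) + K := k3
    have h5 : K ≤ η * Real.log (corrLength b) := by
      rw [div_le_iff₀ hη0] at hlogx
      have := le_abs_self K
      linarith
    have h6 : (1 - 2 * η) * Real.log (corrLength b) ≤ (1 + κ) * Real.log (Ld d b : ℝ) := by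
      linarith
    have hL0 : 0 ≤ Real.log (Ld d b : ℝ) := Real.log_nonneg (by exact_mod_cast k1)
    have h7 : (1 + κ) * Real.log (Ld d b : ℝ) ≤
        (1 - 2 * η) * ((1 + κ + ε) * Real.log (Ld d b : ℝ)) := by
      have e : (1 - 2 * η) * (1 + κ + ε) = 1 + κ := by
        have := hη1
        linear_combination (-1 : ℝ) * this
      rw [← mul_assoc, e]
    exact le_of_mul_le_mul_left (h6.trans h7) hη2

end Vale.Agent.P159.T1.NC.H254
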